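import Mathlib

/-! # P267 / COR (helper581), part 1: Wirtinger calculus on `ℂ²`, integrability of a transported
complex structure, punctured extension lemma. -/

set_option autoImplicit false

open Set Metric Filter Topology Complex

namespace Vale.Agent.P267.H581

noncomputable section

/-- the model space -/
abbrev V := Fin 2 → ℂ

/-- `e_k` -/
def e1 (k : Fin 2) : V := Pi.single k 1
/-- `i e_k` -/
def eI (k : Fin 2) : V := Pi.single k I

/-- `∂/∂z_k` -/
def dz (k : Fin 2) (f : V → ℂ) (x : V) : ℂ :=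
  (1/2) * (fderiv ℝ f x (e1 k) - I * fderiv ℝ f x (eI k))

/-- `∂/∂\bar z_k` -/
def dzb (k : Fin 2) (f : V → ℂ) (x : V) : ℂ :=
  (1/2) * (fderiv ℝ f x (e1 k) + I * fderiv ℝ f x (eI k))

/-- `L_k = ∂̄_k - ∑ A_kl ∂_l` -/
def Lop (A : V → Fin 2 → Fin 2 → ℂ) (k : Fin 2) (f : V → ℂ) (x : V) : ℂ :=
  dzb k f x - ∑ l, A x k l * dz l f x

lemma vec_eq (ξ : V) : ξ = ((ξ 0).re • e1 0 + (ξ 0).im • eI 0 : V) +
    ((ξ 1).re • e1 1 + (ξ 1).im • eI 1 : V) := by
  funext j
  fin_cases j <;> simp [e1, eI]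

lemma clm_eq (D : V →L[ℝ] ℂ) (ξ : V) :
    D ξ = ∑ k, ((1/2) * (D (e1 k) - I * D (eI k)) * ξ k +
      (1/2) * (D (e1 k) + I * D (eI k)) * (starRingEnd ℂ) (ξ k)) := by
  have h0 : (ξ 0) = ((ξ 0).re : ℂ) + (ξ 0).im * I := (Complex.re_add_im _).symm
  have h1 : (ξ 1) = ((ξ 1).re : ℂ) + (ξ 1).im * I := (Complex.re_add_im _).symm
  have c0 : (starRingEnd ℂ) (ξ 0) = ((ξ 0).re : ℂ) - (ξ 0).im * I := by
    apply Complex.ext <;> simp
  have c1 : (starRingEnd ℂ) (ξ 1) = ((ξ 1).re : ℂ) - (ξ 1).im * I := by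
    apply Complex.ext <;> simp
  have e : D ξ = ((ξ 0).re * D (e1 0) + (ξ 0).im * D (eI 0)) +
      ((ξ 1).re * D (e1 1) + (ξ 1).im * D (eI 1)) := by
    conv_lhs => rw [vec_eq ξ]
    simp only [map_add, map_smul, Complex.real_smul]
  rw [e, Fin.sum_univ_two, c0, c1]
  generalize D (e1 0) = a0 at *
  generalize D (eI 0) = b0 at *
  generalize D (e1 1) = a1 at *
  generalize D (eI 1) = b1 at *
  have hI : I * I = -1 := Complex.I_mul_I
  rw [show ∀ u : ℂ, (1/2) * u * ξ 0 = (1/2) * u * (((ξ 0).re : ℂ) + (ξ 0).im * I) from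
    fun u => by rw [← h0], show ∀ u : ℂ, (1/2) * u * ξ 1 = (1/2) * u * (((ξ 1).re : ℂ) + (ξ 1).im * I) from
    fun u => by rw [← h1]]
  linear_combination ((ξ 0).im * b0 + (ξ 1).im * b1) * hI

lemma fderiv_apply_eq (f : V → ℂ) (x ξ : V) :
    fderiv ℝ f x ξ = ∑ k, (dz k f x * ξ k + dzb k f x * (starRingEnd ℂ) (ξ k)) :=
  clm_eq _ _

lemma integrability_aux {A : V → Fin 2 → Fin 2 → ℂ} {f : V → ℂ} {x : V}
    (hf : ContDiffAt ℝ 2 f x) (hA : DifferentiableAt ℝ A x)
    (h : ∀ᶠ y in 𝓝 x, ∀ k, dzb k f y = ∑ i, A y k i * dz i f y) :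
    ∑ i, (Lop A 0 (fun y => A y 1 i) x - Lop A 1 (fun y => A y 0 i) x) * dz i f x = 0 := by
  have hF : DifferentiableAt ℝ (fderiv ℝ f) x :=
    (hf.fderiv_right (m := 1) (by norm_num)).differentiableAt (by norm_num)
  set H := fderiv ℝ (fderiv ℝ f) x with hH
  have hsym : ∀ ξ η, H ξ η = H η ξ := fun ξ η =>
    (hf.isSymmSndFDerivAt (by simp)).eq ξ η
  set DA : V →L[ℝ] (Fin 2 → Fin 2 → ℂ) := fderiv ℝ A x with hDA
  have hAki : ∀ k i, HasFDerivAt (fun y => A y k i)
      ((ContinuousLinearMap.proj (R := ℝ) (φ := fun _ : Fin 2 => ℂ) i).comp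
        ((ContinuousLinearMap.proj (R := ℝ) (φ := fun _ : Fin 2 => Fin 2 → ℂ) k).comp DA)) x :=
    fun k i =>
    (((ContinuousLinearMap.proj (R := ℝ) (φ := fun _ : Fin 2 => ℂ) i).comp
      (ContinuousLinearMap.proj (R := ℝ) (φ := fun _ : Fin 2 => Fin 2 → ℂ) k)).hasFDerivAt.comp x
      hA.hasFDerivAt)
  have hDf : ∀ v : V, HasFDerivAt (fun y => fderiv ℝ f y v) (H.flip v) x := fun v =>
    ((ContinuousLinearMap.apply ℝ ℂ v).hasFDerivAt.comp x hF.hasFDerivAt)
  have hdz : ∀ i, HasFDerivAt (dz i f) ((1/2 : ℂ) • (H.flip (e1 i) - I • H.flip (eI i))) x :=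
    fun i => ((hDf _).sub ((hDf _).const_mul I)).const_mul _
  have hdzb : ∀ i, HasFDerivAt (dzb i f) ((1/2 : ℂ) • (H.flip (e1 i) + I • H.flip (eI i))) x :=
    fun i => ((hDf _).add ((hDf _).const_mul I)).const_mul _
  have key : ∀ k ξ, (1/2 : ℂ) * (H ξ (e1 k) + I * H ξ (eI k)) =
      (DA ξ k 0 * dz 0 f x + A x k 0 * ((1/2 : ℂ) * (H ξ (e1 0) - I * H ξ (eI 0)))) +
      (DA ξ k 1 * dz 1 f x + A x k 1 * ((1/2 : ℂ) * (H ξ (e1 1) - I * H ξ (eI 1)))) := by
    intro k ξ
    have h1 : HasFDerivAt (fun y => A y k 0 * dz 0 f y + A y k 1 * dz 1 f y) _ x :=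
      ((hAki k 0).mul (hdz 0)).add ((hAki k 1).mul (hdz 1))
    have h2 : (dzb k f) =ᶠ[𝓝 x] fun y => A y k 0 * dz 0 f y + A y k 1 * dz 1 f y := by
      filter_upwards [h] with y hy
      rw [hy k, Fin.sum_univ_two]
    have h3 := (h1.congr_of_eventuallyEq h2).unique (hdzb k)
    have h4 := congrArg (fun L : V →L[ℝ] ℂ => L ξ) h3
    simp only [add_apply, smul_apply, sub_apply, ContinuousLinearMap.flip_apply, smul_eq_mul,
      ContinuousLinearMap.comp_apply, ContinuousLinearMap.proj_apply] at h4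
    rw [← h4]
    ring
  have hfd : ∀ k i, fderiv ℝ (fun y => A y k i) x = ((ContinuousLinearMap.proj (R := ℝ) (φ := fun _ : Fin 2 => ℂ) i).comp
        ((ContinuousLinearMap.proj (R := ℝ) (φ := fun _ : Fin 2 => Fin 2 → ℂ) k).comp DA)) :=
    fun k i => (hAki k i).fderiv
  have s1 := hsym (e1 1) (e1 0)
  have s2 := hsym (eI 0) (e1 0)
  have s3 := hsym (eI 1) (e1 0)
  have s4 := hsym (eI 0) (e1 1)
  have s5 := hsym (eI 1) (e1 1)
  have s6 := hsym (eI 1) (eI 0)
  have k1 := key 1 (e1 0)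
  have k2 := key 1 (eI 0)
  have k3 := key 1 (e1 1)
  have k4 := key 1 (eI 1)
  have k5 := key 0 (e1 0)
  have k6 := key 0 (eI 0)
  have k7 := key 0 (e1 1)
  have k8 := key 0 (eI 1)
  simp only [Fin.sum_univ_two, Lop]
  have hdA : ∀ l k i, dz l (fun y => A y k i) x = (1/2) * (DA (e1 l) k i - I * DA (eI l) k i) := by
    intro l k i; rw [dz, hfd]; rfl
  have hdbA : ∀ l k i, dzb l (fun y => A y k i) x = (1/2) * (DA (e1 l) k i + I * DA (eI l) k i) := by
    intro l k i; rw [dzb, hfd]; rfl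
  simp only [hdA, hdbA]
  rw [s1, s2, s3, s4, s5, s6] at *
  generalize dz 0 f x = p0 at *
  generalize dz 1 f x = p1 at *
  generalize A x 0 0 = a00 at *
  generalize A x 0 1 = a01 at *
  generalize A x 1 0 = a10 at *
  generalize A x 1 1 = a11 at *
  linear_combination (-1/2) * (k1 + I * k2) + (1/2) * (k7 + I * k8) +
    a00 * (1/2) * (k1 - I * k2) + a01 * (1/2) * (k3 - I * k4) -
    a10 * (1/2) * (k5 - I * k6) - a11 * (1/2) * (k7 - I * k8)

lemma kernel_zero {A : V → Fin 2 → Fin 2 → ℂ} {f : V → V} {x : V}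
    (hfd : DifferentiableAt ℝ f x) (hs : Function.Surjective (fderiv ℝ f x))
    (h : ∀ j k, dzb k (fun y => f y j) x = ∑ i, A x k i * dz i (fun y => f y j) x)
    (c : Fin 2 → ℂ) (hc : ∀ j, ∑ i, c i * dz i (fun y => f y j) x = 0) : c = 0 := by
  have hcomp : ∀ j (ξ : V), fderiv ℝ (fun y => f y j) x ξ = (fderiv ℝ f x ξ) j := by
    intro j ξ
    have := ((ContinuousLinearMap.proj (R := ℝ) (φ := fun _ : Fin 2 => ℂ) j).hasFDerivAt.comp x
      hfd.hasFDerivAt).fderiv
    rw [show (fun y => f y j) = (ContinuousLinearMap.proj (R := ℝ) (φ := fun _ : Fin 2 => ℂ) j) ∘ f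
      from rfl, this]
    rfl
  let P : V →ₗ[ℂ] V :=
    { toFun := fun u j => ∑ i, u i * dz i (fun y => f y j) x
      map_add' := by
        intro u v; funext j; simp only [Pi.add_apply, add_mul, Finset.sum_add_distrib]
      map_smul' := by
        intro a u; funext j
        simp only [Pi.smul_apply, smul_eq_mul, RingHom.id_apply, Finset.mul_sum, mul_assoc] }
  have hsurj : Function.Surjective P := by
    intro v
    obtain ⟨ξ, hξ⟩ := hs v
    refine ⟨fun i => ξ i + ∑ k, A x k i * (starRingEnd ℂ) (ξ k), ?_⟩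
    rw [← hξ]
    funext j
    rw [← hcomp, fderiv_apply_eq]
    show (∑ i, (ξ i + ∑ k, A x k i * (starRingEnd ℂ) (ξ k)) * dz i (fun y => f y j) x) = _
    simp only [h, Fin.sum_univ_two]
    ring
  have hinj := (LinearMap.injective_iff_surjective (f := P)).2 hsurj
  apply hinj
  rw [map_zero]
  funext j
  exact hc j

/-- integrability of the transported structure -/
lemma integrable_at {A : V → Fin 2 → Fin 2 → ℂ} {f : V → V} {x : V}
    (hf : ContDiffAt ℝ 2 f x) (hs : Function.Surjective (fderiv ℝ f x))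
    (hA : DifferentiableAt ℝ A x)
    (h : ∀ᶠ y in 𝓝 x, ∀ j k, dzb k (fun y => f y j) y = ∑ i, A y k i * dz i (fun y => f y j) y) :
    ∀ i, Lop A 0 (fun y => A y 1 i) x = Lop A 1 (fun y => A y 0 i) x := by
  have h0 : (fun i => Lop A 0 (fun y => A y 1 i) x - Lop A 1 (fun y => A y 0 i) x) = 0 := by
    refine kernel_zero (hf.differentiableAt (by norm_num)) hs h.self_of_nhds _ (fun j => ?_)
    refine integrability_aux ?_ hA ?_
    · exact (ContinuousLinearMap.proj (R := ℝ) (φ := fun _ : Fin 2 => ℂ) j).contDiff.contDiffAt.comp x hf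
    · filter_upwards [h] with y hy k
      exact hy j k
  intro i
  have := congrFun h0 i
  exact sub_eq_zero.1 this

section punctured

variable {E F : Type} [NormedAddCommGroup E] [NormedSpace ℝ E] [NormedAddCommGroup F]
  [NormedSpace ℝ F]

lemma hasFDerivAt_zero_of_punctured {f : E → F} {ε : ℝ} (hε : 0 < ε)
    (hf : ∀ x, x ≠ 0 → ‖x‖ < ε → DifferentiableAt ℝ f x) (h0 : f 0 = 0)
    (hc : Tendsto (fun x => ‖f x‖) (𝓝[≠] 0) (𝓝 0))
    (hd : Tendsto (fun x => ‖fderiv ℝ f x‖) (𝓝[≠] 0) (𝓝 0)) :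
    HasFDerivAt f (0 : E →L[ℝ] F) 0 := by
  rw [hasFDerivAt_iff_isLittleO, Asymptotics.isLittleO_iff]
  intro c hcpos
  have hd' : ∀ᶠ x in 𝓝[≠] (0:E), ‖fderiv ℝ f x‖ < c := hd.eventually (gt_mem_nhds hcpos)
  rw [eventually_nhdsWithin_iff, Metric.eventually_nhds_iff] at hd'
  obtain ⟨δ, hδ, hd'⟩ := hd'
  rw [Metric.eventually_nhds_iff]
  refine ⟨min δ ε, lt_min hδ hε, ?_⟩
  intro x hx
  rw [dist_zero_right] at hx
  simp only [h0, sub_zero, zero_apply]
  by_cases hx0 : x = 0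
  · subst hx0; simp [h0]
  have hcont : ContinuousOn (fun t : ℝ => f ((1 - t) • x)) (Icc 0 1) := by
    intro t ht
    rcases eq_or_ne t 1 with rfl | ht1
    · have hc2 : Tendsto f (𝓝 0) (𝓝 0) := by
        rw [tendsto_zero_iff_norm_tendsto_zero]
        have : Tendsto (fun x => ‖f x‖) (pure 0) (𝓝 0) := by
          rw [tendsto_pure_left]; intro s hs; rw [h0, norm_zero]; exact mem_of_mem_nhds hs
        have h2 := hc.sup this
        rwa [nhdsNE_sup_pure] at h2
      have hc3 : ContinuousAt f 0 := by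
        rw [ContinuousAt, h0]; exact hc2
      have : ContinuousAt (fun t : ℝ => f ((1 - t) • x)) 1 := by
        refine ContinuousAt.comp (f := fun t : ℝ => (1 - t) • x) (g := f) ?_ (by fun_prop)
        simpa using hc3
      exact this.continuousWithinAt
    · have h1 : (1 - t) • x ≠ 0 := smul_ne_zero (sub_ne_zero.2 (Ne.symm ht1)) hx0
      have h2 : ‖(1 - t) • x‖ < ε := by
        rw [norm_smul, Real.norm_of_nonneg (by linarith [ht.2])]
        have := norm_nonneg x
        nlinarith [ht.1, hx.trans_le (min_le_right δ ε)]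
      have : ContinuousAt (fun t : ℝ => f ((1 - t) • x)) t :=
        ContinuousAt.comp (f := fun t : ℝ => (1 - t) • x) (g := f) (hf _ h1 h2).continuousAt
          (by fun_prop)
      exact this.continuousWithinAt
  have hderiv : ∀ t ∈ Ico (0:ℝ) 1, HasDerivWithinAt (fun t : ℝ => f ((1 - t) • x))
      (fderiv ℝ f ((1 - t) • x) (-x)) (Ici t) t := by
    intro t ht
    have h1 : (1 - t) • x ≠ 0 := smul_ne_zero (by linarith [ht.2]) hx0
    have h2 : ‖(1 - t) • x‖ < ε := by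
      rw [norm_smul, Real.norm_of_nonneg (by linarith [ht.2])]
      have := norm_nonneg x
      nlinarith [ht.1, hx.trans_le (min_le_right δ ε)]
    have h3 : HasDerivAt (fun t : ℝ => (1 - t) • x) (-x) t := by
      have := ((hasDerivAt_const t (1:ℝ)).sub (hasDerivAt_id t)).smul_const x
      simpa using this
    exact ((hf _ h1 h2).hasFDerivAt.comp_hasDerivAt t h3).hasDerivWithinAt
  have hbound : ∀ t ∈ Ico (0:ℝ) 1, ‖fderiv ℝ f ((1 - t) • x) (-x)‖ ≤ c * ‖x‖ := by
    intro t ht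
    have h1 : (1 - t) • x ≠ 0 := smul_ne_zero (by linarith [ht.2]) hx0
    have h2 : ‖(1 - t) • x‖ < δ := by
      rw [norm_smul, Real.norm_of_nonneg (by linarith [ht.2])]
      have := norm_nonneg x
      nlinarith [ht.1, hx.trans_le (min_le_left δ ε)]
    have h3 := hd' (y := (1 - t) • x) (by rwa [dist_zero_right]) h1
    calc ‖fderiv ℝ f ((1 - t) • x) (-x)‖ ≤ ‖fderiv ℝ f ((1 - t) • x)‖ * ‖-x‖ :=
          ContinuousLinearMap.le_opNorm _ _
      _ ≤ c * ‖x‖ := by rw [norm_neg]; gcongr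
  have h4 := norm_image_sub_le_of_norm_deriv_right_le_segment hcont hderiv hbound 1
    (right_mem_Icc.2 zero_le_one)
  simp only [sub_self, zero_smul, h0, sub_zero, one_smul, zero_sub, norm_neg, mul_one] at h4
  exact h4

lemma contDiffOn_of_punctured {ε : ℝ} (hε : 0 < ε) (n : ℕ) :
    ∀ {F : Type} [NormedAddCommGroup F] [NormedSpace ℝ F] {f : E → F},
    ContDiffOn ℝ n f (ball 0 ε \ {0}) → f 0 = 0 →
    (∀ j ≤ n, Tendsto (fun x => ‖iteratedFDeriv ℝ j f x‖) (𝓝[≠] 0) (𝓝 0)) →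
    ContDiffOn ℝ n f (ball 0 ε) ∧ ∀ j ≤ n, ‖iteratedFDeriv ℝ j f 0‖ = 0 := by
  have hopen : IsOpen (ball (0:E) ε \ {0}) := isOpen_ball.sdiff isClosed_singleton
  induction n with
  | zero =>
    intro F _ _ f hf h0 hj
    have h1 := hj 0 le_rfl
    simp only [norm_iteratedFDeriv_zero] at h1
    have hc2 : Tendsto f (𝓝 0) (𝓝 0) := by
      rw [tendsto_zero_iff_norm_tendsto_zero]
      have : Tendsto (fun x => ‖f x‖) (pure 0) (𝓝 0) := by
        rw [tendsto_pure_left]; intro s hs; rw [h0, norm_zero]; exact mem_of_mem_nhds hs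
      have h2 := h1.sup this
      rwa [nhdsNE_sup_pure] at h2
    refine ⟨?_, ?_⟩
    · rw [Nat.cast_zero, contDiffOn_zero] at hf ⊢
      intro x hx
      by_cases hx0 : x = 0
      · subst hx0
        have : ContinuousAt f 0 := by rw [ContinuousAt, h0]; exact hc2
        exact this.continuousWithinAt
      · exact (hf.continuousAt (hopen.mem_nhds ⟨hx, hx0⟩)).continuousWithinAt
    · intro j hj0
      obtain rfl : j = 0 := by omega
      rw [norm_iteratedFDeriv_zero, h0, norm_zero]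
  | succ n ih =>
    intro F _ _ f hf h0 hj
    have hfd : ∀ x, x ≠ 0 → ‖x‖ < ε → DifferentiableAt ℝ f x := by
      intro x hx0 hx
      refine (hf.differentiableOn (by simp)).differentiableAt (hopen.mem_nhds ⟨?_, hx0⟩)
      simpa using hx
    have h1 := hj 0 (by omega)
    have h2 := hj 1 (by omega)
    simp only [norm_iteratedFDeriv_zero] at h1
    have h2' : Tendsto (fun x => ‖fderiv ℝ f x‖) (𝓝[≠] 0) (𝓝 0) := by
      refine h2.congr (fun x => ?_)
      rw [← norm_iteratedFDeriv_fderiv, norm_iteratedFDeriv_zero]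
    have h3 := hasFDerivAt_zero_of_punctured hε hfd h0 h1 h2'
    have h4 : fderiv ℝ f 0 = 0 := h3.fderiv
    have h5 : ContDiffOn ℝ n (fderiv ℝ f) (ball 0 ε \ {0}) :=
      ((contDiffOn_succ_iff_fderiv_of_isOpen hopen).1 (by exact_mod_cast hf)).2.2
    obtain ⟨h6, h7⟩ := ih h5 h4 (by
      intro j hjn
      refine (hj (j+1) (by omega)).congr (fun x => ?_)
      rw [norm_iteratedFDeriv_fderiv])
    refine ⟨?_, ?_⟩
    · have : ContDiffOn ℝ ((n:WithTop ℕ∞) + 1) f (ball 0 ε) := by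
        rw [contDiffOn_succ_iff_fderiv_of_isOpen isOpen_ball]
        refine ⟨?_, by simp, h6⟩
        intro x hx
        by_cases hx0 : x = 0
        · subst hx0; exact h3.differentiableAt.differentiableWithinAt
        · exact (hfd x hx0 (by simpa using hx)).differentiableWithinAt
      exact_mod_cast this
    · intro j hjn
      rcases j with _ | j
      · rw [norm_iteratedFDeriv_zero, h0, norm_zero]
      · rw [← norm_iteratedFDeriv_fderiv]
        exact h7 j (by omega)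

end punctured

end

end Vale.Agent.P267.H581
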