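import Vale.Agent.P267.H581.Cor1

/-! # P267 / COR (helper581), part 2: cut-off and scaling of a flat integrable structure. -/

set_option autoImplicit false

open Set Metric Filter Topology Complex

namespace Vale.Agent.P267.H581

noncomputable section

lemma fderiv_scale {F : Type} [NormedAddCommGroup F] [NormedSpace ℝ F] {f : V → F} {x : V} {s : ℝ}
    (hf : DifferentiableAt ℝ f (s • x)) (ξ : V) :
    fderiv ℝ (fun y => f (s • y)) x ξ = s • fderiv ℝ f (s • x) ξ := by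
  have h1 : HasFDerivAt (fun y : V => s • y) (s • ContinuousLinearMap.id ℝ V) x :=
    (hasFDerivAt_id x).const_smul s
  have h2 := (hf.hasFDerivAt.comp x h1).fderiv
  rw [show (fun y => f (s • y)) = f ∘ (fun y => s • y) from rfl, h2]
  simp

lemma dz_scale {f : V → ℂ} {x : V} {s : ℝ} (hf : DifferentiableAt ℝ f (s • x)) (k : Fin 2) :
    dz k (fun y => f (s • y)) x = s * dz k f (s • x) := by
  simp only [dz, fderiv_scale hf, Complex.real_smul]; ring

lemma dzb_scale {f : V → ℂ} {x : V} {s : ℝ} (hf : DifferentiableAt ℝ f (s • x)) (k : Fin 2) :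
    dzb k (fun y => f (s • y)) x = s * dzb k f (s • x) := by
  simp only [dzb, fderiv_scale hf, Complex.real_smul]; ring

lemma dz_congr {f g : V → ℂ} {x : V} (h : f =ᶠ[𝓝 x] g) (k : Fin 2) : dz k f x = dz k g x := by
  simp only [dz, h.fderiv_eq]

lemma dzb_congr {f g : V → ℂ} {x : V} (h : f =ᶠ[𝓝 x] g) (k : Fin 2) : dzb k f x = dzb k g x := by
  simp only [dzb, h.fderiv_eq]

lemma norm_iteratedFDeriv_scale {A : V → Fin 2 → Fin 2 → ℂ} {ε : ℝ}
    (hA : ContDiffOn ℝ 5 A (ball 0 ε)) {s : ℝ} (hs0 : 0 < s) (hs1 : s ≤ 1) {x : V}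
    (hx : ‖s • x‖ < ε) {j : ℕ} (hj : j ≤ 5) :
    ‖iteratedFDeriv ℝ j (fun y => A (s • y)) x‖ ≤ ‖iteratedFDeriv ℝ j A (s • x)‖ := by
  set g : V →L[ℝ] V := s • ContinuousLinearMap.id ℝ V with hg
  have hgx : ∀ y, g y = s • y := fun y => by simp [hg]
  have hgn : ‖g‖ ≤ 1 := by
    rw [hg, norm_smul, Real.norm_of_nonneg hs0.le]
    calc s * ‖ContinuousLinearMap.id ℝ V‖ ≤ 1 * 1 := by
          gcongr; exact ContinuousLinearMap.norm_id_le
      _ = 1 := one_mul 1
  have ho : IsOpen (g ⁻¹' (ball 0 ε)) := isOpen_ball.preimage g.continuous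
  have hmem : x ∈ g ⁻¹' (ball 0 ε) := by simpa [hgx] using hx
  have h := g.iteratedFDerivWithin_comp_right hA isOpen_ball.uniqueDiffOn ho.uniqueDiffOn
    (x := x) hmem (i := j) (by exact_mod_cast hj)
  rw [iteratedFDerivWithin_of_isOpen j ho hmem, iteratedFDerivWithin_of_isOpen j isOpen_ball hmem] at h
  rw [show (fun y => A (s • y)) = A ∘ g from by funext y; simp [hgx], h]
  refine (ContinuousMultilinearMap.norm_compContinuousLinearMap_le _ _).trans ?_
  rw [hgx]
  calc ‖iteratedFDeriv ℝ j A (s • x)‖ * ∏ _i : Fin j, ‖g‖ ≤ ‖iteratedFDeriv ℝ j A (s • x)‖ * 1 := by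
        gcongr
        exact Finset.prod_le_one (fun _ _ => norm_nonneg _) (fun _ _ => hgn)
    _ = _ := mul_one _

lemma exists_scaled {A : V → Fin 2 → Fin 2 → ℂ} {ε : ℝ} (hε : 0 < ε)
    (hA : ContDiffOn ℝ 5 A (ball 0 ε))
    (hflat : ∀ j ≤ 5, ∀ δ : ℝ, 0 < δ → ∃ r : ℝ, 0 < r ∧ ∀ y, ‖y‖ < r → ‖iteratedFDeriv ℝ j A y‖ ≤ δ)
    (hint : ∀ x, ‖x‖ < ε → ∀ i, Lop A 0 (fun y => A y 1 i) x = Lop A 1 (fun y => A y 0 i) x)
    {η : ℝ} (hη : 0 < η) :
    ∃ s : ℝ, 0 < s ∧ s * 5 ≤ ε ∧ ∃ B : V → Fin 2 → Fin 2 → ℂ, ContDiff ℝ 5 B ∧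
      (∀ j ≤ 5, ∀ x, ‖iteratedFDeriv ℝ j B x‖ ≤ η) ∧ (∀ x, ‖x‖ < 3 → B x = A (s • x)) ∧
      (∀ x, ‖x‖ < 3 → ∀ i, Lop B 0 (fun y => B y 1 i) x = Lop B 1 (fun y => B y 0 i) x) := by
  -- the cut-off
  let χ : ContDiffBump (0 : V) := ⟨3, 4, by norm_num, by norm_num⟩
  have hχ : ContDiff ℝ 5 χ := χ.contDiff
  have hχc : HasCompactSupport (χ : V → ℝ) := χ.hasCompactSupport
  have hbd : ∀ j : ℕ, j ≤ 5 → ∃ M : ℝ, ∀ x, ‖iteratedFDeriv ℝ j (χ : V → ℝ) x‖ ≤ M := by
    intro j hj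
    exact (hχc.iteratedFDeriv (𝕜 := ℝ) j).exists_bound_of_continuous
      (hχ.continuous_iteratedFDeriv (by exact_mod_cast hj))
  choose! Mf hMf using hbd
  obtain ⟨M, hM1, hM⟩ : ∃ M : ℝ, 1 ≤ M ∧ ∀ j ≤ 5, ∀ x, ‖iteratedFDeriv ℝ j (χ : V → ℝ) x‖ ≤ M := by
    refine ⟨max 1 (∑ j ∈ Finset.range 6, max (Mf j) 0), le_max_left _ _, fun j hj x => ?_⟩
    refine (hMf j hj x).trans (le_trans ?_ (le_max_right _ _))
    exact (le_max_left _ _).trans (Finset.single_le_sum (f := fun j => max (Mf j) 0)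
      (fun _ _ => le_max_right _ _) (Finset.mem_range.2 (by omega)))
  -- the scale
  have hδ : 0 < η / (32 * M) := by positivity
  have hr : ∀ j : ℕ, ∃ r : ℝ, 0 < r ∧ (j ≤ 5 → ∀ y, ‖y‖ < r → ‖iteratedFDeriv ℝ j A y‖ ≤ η / (32 * M)) := by
    intro j
    by_cases hj : j ≤ 5
    · obtain ⟨r, h1, h2⟩ := hflat j hj _ hδ
      exact ⟨r, h1, fun _ => h2⟩
    · exact ⟨1, one_pos, fun h => absurd h hj⟩
  choose rf hrf0 hrf using hr
  obtain ⟨r, hr0, hr⟩ : ∃ r : ℝ, 0 < r ∧ ∀ j ≤ 5, r ≤ rf j := by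
    refine ⟨min (min (min (rf 0) (rf 1)) (min (rf 2) (rf 3))) (min (rf 4) (rf 5)), ?_, ?_⟩
    · simp only [lt_min_iff]
      exact ⟨⟨⟨hrf0 0, hrf0 1⟩, hrf0 2, hrf0 3⟩, hrf0 4, hrf0 5⟩
    · intro j hj
      interval_cases j <;> simp
  set s : ℝ := min (min (r / 5) (ε / 5)) 1 with hs
  have hs0 : 0 < s := by positivity
  have hs1 : s ≤ 1 := min_le_right _ _
  have hsr : s * 5 ≤ r := by
    have : s ≤ r / 5 := (min_le_left _ _).trans (min_le_left _ _)
    linarith
  have hse : s * 5 ≤ ε := by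
    have : s ≤ ε / 5 := (min_le_left _ _).trans (min_le_right _ _)
    linarith
  have hnorm : ∀ x : V, ‖s • x‖ = s * ‖x‖ := fun x => by rw [norm_smul, Real.norm_of_nonneg hs0.le]
  have hlt : ∀ x : V, ‖x‖ < 5 → ‖s • x‖ < s * 5 := fun x hx => by
    rw [hnorm]; exact mul_lt_mul_of_pos_left hx hs0
  have hAs : ContDiffOn ℝ 5 (fun y => A (s • y)) (ball 0 5) := by
    refine hA.comp (contDiff_const_smul s).contDiffOn ?_
    intro x hx
    rw [mem_ball_zero_iff] at hx ⊢
    exact (hlt x hx).trans_le hse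
  let B : V → Fin 2 → Fin 2 → ℂ := fun x => χ x • A (s • x)
  have hB3 : ∀ x : V, ‖x‖ ≤ 3 → B x = A (s • x) := by
    intro x hx
    have : χ x = 1 := χ.one_of_mem_closedBall (by rw [mem_closedBall_zero_iff]; exact hx)
    simp only [B, this, one_smul]
  have hBout : ∀ x : V, 4 ≤ ‖x‖ → B x = 0 := by
    intro x hx
    have : χ x = 0 := χ.zero_of_le_dist (by rw [dist_zero_right]; exact hx)
    simp only [B, this, zero_smul]
  have hBev : ∀ x : V, 4 < ‖x‖ → B =ᶠ[𝓝 x] fun _ => 0 := by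
    intro x hx
    have : {y : V | 4 < ‖y‖} ∈ 𝓝 x := (isOpen_lt continuous_const continuous_norm).mem_nhds hx
    filter_upwards [this] with y hy
    exact hBout y hy.le
  have hBin : ContDiffOn ℝ 5 B (ball 0 5) := hχ.contDiffOn.smul hAs
  have hBc : ContDiff ℝ 5 B := by
    rw [contDiff_iff_contDiffAt]
    intro x
    by_cases hx : ‖x‖ < 5
    · exact hBin.contDiffAt (isOpen_ball.mem_nhds (by simpa using hx))
    · exact contDiffAt_const.congr_of_eventuallyEq (hBev x (by linarith [not_lt.1 hx]))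
  refine ⟨s, hs0, hse, B, hBc, ?_, fun x hx => hB3 x hx.le, ?_⟩
  · intro j hj x
    by_cases hx : ‖x‖ < 5
    · have hx' : x ∈ ball (0:V) 5 := by simpa using hx
      have h1 := norm_iteratedFDerivWithin_smul_le (𝕜 := ℝ) (𝕜' := ℝ) (f := (χ : V → ℝ))
        (g := fun y => A (s • y)) (N := 5) (s := ball (0:V) 5) hχ.contDiffOn hAs
        isOpen_ball.uniqueDiffOn hx' (n := j) (by exact_mod_cast hj)
      rw [iteratedFDerivWithin_of_isOpen j isOpen_ball hx'] at h1
      refine h1.trans ?_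
      have h2 : ∀ i ∈ Finset.range (j + 1), (j.choose i : ℝ) *
          ‖iteratedFDerivWithin ℝ i (χ : V → ℝ) (ball 0 5) x‖ *
          ‖iteratedFDerivWithin ℝ (j - i) (fun y => A (s • y)) (ball 0 5) x‖ ≤
          (j.choose i : ℝ) * (η / 32) := by
        intro i hi
        have hi' : i ≤ j := Nat.lt_succ_iff.1 (Finset.mem_range.1 hi)
        rw [iteratedFDerivWithin_of_isOpen _ isOpen_ball hx', iteratedFDerivWithin_of_isOpen _ isOpen_ball hx']
        have h3 := hM i (by omega) x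
        have h4 : ‖iteratedFDeriv ℝ (j - i) (fun y => A (s • y)) x‖ ≤ η / (32 * M) := by
          refine (norm_iteratedFDeriv_scale hA hs0 hs1 ((hlt x hx).trans_le hse) (by omega)).trans ?_
          exact hrf (j - i) (by omega) _ (((hlt x hx).trans_le hsr).trans_le (hr _ (by omega)))
        calc (j.choose i : ℝ) * ‖iteratedFDeriv ℝ i (χ : V → ℝ) x‖ *
            ‖iteratedFDeriv ℝ (j - i) (fun y => A (s • y)) x‖
            ≤ (j.choose i : ℝ) * M * (η / (32 * M)) := by gcongr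
          _ = (j.choose i : ℝ) * (η / 32) := by field_simp
      refine (Finset.sum_le_sum h2).trans ?_
      rw [← Finset.sum_mul]
      have h5 : (∑ i ∈ Finset.range (j + 1), (j.choose i : ℝ)) = 2 ^ j := by
        have := Nat.sum_range_choose j
        exact_mod_cast this
      rw [h5]
      have h6 : (2:ℝ) ^ j ≤ 32 := by
        calc (2:ℝ)^j ≤ 2 ^ 5 := pow_le_pow_right₀ (by norm_num) hj
          _ = 32 := by norm_num
      calc (2:ℝ) ^ j * (η / 32) ≤ 32 * (η / 32) := by gcongr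
        _ = η := by ring
    · have h1 := (hBev x (by linarith [not_lt.1 hx])).iteratedFDeriv ℝ j
      rw [h1.self_of_nhds]
      rw [iteratedFDeriv_fun_zero]
      simpa using hη.le
  · intro x hx i
    have hev : B =ᶠ[𝓝 x] fun y => A (s • y) := by
      have : {y : V | ‖y‖ < 3} ∈ 𝓝 x := (isOpen_lt continuous_norm continuous_const).mem_nhds hx
      filter_upwards [this] with y hy
      exact hB3 y (le_of_lt hy)
    have hsx : ‖s • x‖ < ε := (hlt x (by linarith)).trans_le hse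
    have hAd : DifferentiableAt ℝ A (s • x) :=
      (hA.differentiableOn (by norm_num)).differentiableAt (isOpen_ball.mem_nhds (by simpa using hsx))
    have hAki : ∀ k i, DifferentiableAt ℝ (fun y => A y k i) (s • x) := by
      intro k i
      exact differentiableAt_pi.1 (differentiableAt_pi.1 hAd k) i
    have hevki : ∀ k i, (fun y => B y k i) =ᶠ[𝓝 x] fun y => A (s • y) k i := by
      intro k i
      filter_upwards [hev] with y hy
      rw [hy]
    have hd : ∀ l k i, dz l (fun y => B y k i) x = s * dz l (fun y => A y k i) (s • x) := by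
      intro l k i
      rw [dz_congr (hevki k i) l]
      exact dz_scale (f := fun y => A y k i) (hAki k i) l
    have hdb : ∀ l k i, dzb l (fun y => B y k i) x = s * dzb l (fun y => A y k i) (s • x) := by
      intro l k i
      rw [dzb_congr (hevki k i) l]
      exact dzb_scale (f := fun y => A y k i) (hAki k i) l
    have := hint (s • x) hsx i
    simp only [Lop, hd, hdb, hB3 x hx.le, Fin.sum_univ_two] at this ⊢
    linear_combination (s : ℂ) * this

end

end Vale.Agent.P267.H581
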