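import Vale.Agent.P267.H581.Cor2

/-! # P267 / COR (helper581), part 3: the Newlander-Nirenberg statement in the form used here, and
its consequence for a flat structure on a punctured ball of `ℂ²`. -/

set_option autoImplicit false

open Set Metric Filter Topology Complex
open scoped NNReal

namespace Vale.Agent.P267.H581

noncomputable section

/-- The Newlander-Nirenberg theorem for small integrable structures on a bidisc. -/
def NNStatement : Prop := ∃ η : ℝ, 0 < η ∧ ∀ B : V → Fin 2 → Fin 2 → ℂ, ContDiff ℝ 5 B →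
  (∀ j ≤ 5, ∀ x, ‖iteratedFDeriv ℝ j B x‖ ≤ η) →
  (∀ x, ‖x‖ < 3 → ∀ i, Lop B 0 (fun y => B y 1 i) x = Lop B 1 (fun y => B y 0 i) x) →
  ∃ w : V → V, ∀ z, ‖z‖ < 1 → DifferentiableAt ℝ w z ∧ ‖w z - z‖ ≤ 1/4 ∧
    ‖fderiv ℝ w z - ContinuousLinearMap.id ℝ V‖ ≤ 1/4 ∧
    ∀ k j, dzb k (fun y => w y j) z = - ∑ i, B (w z) i j * (starRingEnd ℂ) (dz k (fun y => w y i) z)

lemma comp_apply_eq {f : V → V} {x : V} (hf : DifferentiableAt ℝ f x) (j : Fin 2) (ξ : V) :
    (fderiv ℝ f x ξ) j = ∑ k, (dz k (fun y => f y j) x * ξ k +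
      dzb k (fun y => f y j) x * (starRingEnd ℂ) (ξ k)) := by
  have hcomp : fderiv ℝ (fun y => f y j) x ξ = (fderiv ℝ f x ξ) j := by
    have := ((ContinuousLinearMap.proj (R := ℝ) (φ := fun _ : Fin 2 => ℂ) j).hasFDerivAt.comp x
      hf.hasFDerivAt).fderiv
    rw [show (fun y => f y j) = (ContinuousLinearMap.proj (R := ℝ) (φ := fun _ : Fin 2 => ℂ) j) ∘ f
      from rfl, this]
    rfl
  rw [← hcomp, fderiv_apply_eq]

/-- composition of a solution of the structure equation with a holomorphic parametrisation -/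
lemma holo_comp {A : Fin 2 → Fin 2 → ℂ} {f G : V → V} {z : V}
    (hf : DifferentiableAt ℝ f (G z)) (hG : DifferentiableAt ℝ G z)
    (hfb : ∀ j k, dzb k (fun y => f y j) (G z) = ∑ i, A k i * dz i (fun y => f y j) (G z))
    (hGb : ∀ k j, dzb k (fun y => G y j) z =
      - ∑ i, A i j * (starRingEnd ℂ) (dz k (fun y => G y i) z)) :
    ∃ L : V →L[ℂ] V, HasFDerivAt (fun y => f (G y)) L z ∧
      ∀ η, L η = fderiv ℝ f (G z) (fderiv ℝ G z η) := by
  let W : Fin 2 → V → ℂ := fun i η => ∑ k, dz k (fun y => G y i) z * η k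
  have hWadd : ∀ i u v, W i (u + v) = W i u + W i v := by
    intro i u v; simp only [W, Pi.add_apply, mul_add, Finset.sum_add_distrib]
  have hWsmul : ∀ i (c : ℂ) u, W i (c • u) = c * W i u := by
    intro i c u; simp only [W, Pi.smul_apply, smul_eq_mul, Fin.sum_univ_two]; ring
  let L0 : V →ₗ[ℂ] V :=
    { toFun := fun η j => ∑ i, dz i (fun y => f y j) (G z) *
        (W i η - ∑ k, ∑ l, A k i * (starRingEnd ℂ) (A l k) * W l η)
      map_add' := by
        intro u v; funext j
        simp only [Pi.add_apply, hWadd, Fin.sum_univ_two]; ring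
      map_smul' := by
        intro c u; funext j
        simp only [Pi.smul_apply, smul_eq_mul, RingHom.id_apply, hWsmul, Fin.sum_univ_two]; ring }
  let L : V →L[ℂ] V := LinearMap.toContinuousLinearMap L0
  have hLη : ∀ η, L η = fderiv ℝ f (G z) (fderiv ℝ G z η) := by
    intro η
    funext j
    rw [comp_apply_eq hf]
    show (∑ i, dz i (fun y => f y j) (G z) *
        (W i η - ∑ k, ∑ l, A k i * (starRingEnd ℂ) (A l k) * W l η)) = _
    have hW : ∀ i, (fderiv ℝ G z η) i = W i η - ∑ l, A l i * (starRingEnd ℂ) (W l η) := by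
      intro i
      rw [comp_apply_eq hG]
      simp only [hGb, W, Fin.sum_univ_two, map_add, map_mul]
      ring
    simp only [hW, hfb, Fin.sum_univ_two, map_sub, map_add, map_mul, Complex.conj_conj]
    ring
  refine ⟨L, ?_, hLη⟩
  have h1 : HasFDerivAt (fun y => f (G y)) ((fderiv ℝ f (G z)).comp (fderiv ℝ G z)) z :=
    hf.hasFDerivAt.comp z hG.hasFDerivAt
  refine hasFDerivAt_of_restrictScalars ℝ h1 ?_
  ext η : 1
  exact hLη η

/-- data obtained from the Newlander-Nirenberg theorem -/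
theorem exists_param (hNN : NNStatement) {A : V → Fin 2 → Fin 2 → ℂ} {ε : ℝ} (hε : 0 < ε)
    (hA : ContDiffOn ℝ 5 A (ball 0 ε))
    (hflat : ∀ j ≤ 5, ∀ δ : ℝ, 0 < δ → ∃ r : ℝ, 0 < r ∧ ∀ y, ‖y‖ < r → ‖iteratedFDeriv ℝ j A y‖ ≤ δ)
    (hint : ∀ x, ‖x‖ < ε → ∀ i, Lop A 0 (fun y => A y 1 i) x = Lop A 1 (fun y => A y 0 i) x) :
    ∃ (G : OpenPartialHomeomorph V V) (s : ℝ), 0 < s ∧ s * 5 ≤ ε ∧ ball 0 (1/4) ⊆ G.source ∧ G 0 = 0 ∧
      (∀ z, ‖z‖ < 1/4 → ‖G z‖ ≤ 2 * s * ‖z‖ ∧ s * ‖z‖ ≤ 2 * ‖G z‖) ∧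
      (∀ z, ‖z‖ < 1/4 → DifferentiableAt ℝ G z ∧ Function.Injective (fderiv ℝ G z) ∧
        ∀ k j, dzb k (fun y => G y j) z =
          - ∑ i, A (G z) i j * (starRingEnd ℂ) (dz k (fun y => G y i) z)) := by
  obtain ⟨η, hη, hNN⟩ := hNN
  obtain ⟨s, hs0, hsε, B, hB5, hBη, hBA, hBint⟩ := exists_scaled hε hA hflat hint hη
  obtain ⟨w, hw⟩ := hNN B hB5 hBη hBint
  -- `w` approximates the identity
  have hwa : ApproximatesLinearOn w ((ContinuousLinearEquiv.refl ℝ V : V ≃L[ℝ] V) : V →L[ℝ] V)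
      (ball 0 1) (1/4 : ℝ≥0) := by
    intro x hx y hy
    have h := (convex_ball (0:V) 1).norm_image_sub_le_of_norm_hasFDerivWithin_le
      (f := fun z => w z - z) (f' := fun z => fderiv ℝ w z - ContinuousLinearMap.id ℝ V) (C := 1/4)
      (𝕜 := ℝ) (fun z hz => (((hw z (by simpa using hz)).1.hasFDerivAt).sub
        (hasFDerivAt_id z)).hasFDerivWithinAt)
      (fun z hz => (hw z (by simpa using hz)).2.2.1) hy hx
    simp only [ContinuousLinearEquiv.coe_refl, ContinuousLinearMap.coe_id', id_eq, NNReal.coe_div,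
      NNReal.coe_one, NNReal.coe_ofNat]
    convert h using 2
    abel
  have hw2 : ∀ x y, ‖x‖ < 1 → ‖y‖ < 1 → ‖w x - w y - (x - y)‖ ≤ 1/4 * ‖x - y‖ := by
    intro x y hx hy
    have := hwa x (by simpa using hx) y (by simpa using hy)
    simpa using this
  have hN : ‖((ContinuousLinearEquiv.refl ℝ V).symm : V →L[ℝ] V)‖₊ = 1 := by
    have : ((ContinuousLinearEquiv.refl ℝ V).symm : V →L[ℝ] V) = ContinuousLinearMap.id ℝ V := rfl
    rw [this, ContinuousLinearMap.nnnorm_id]
  have hc : Subsingleton V ∨ (1/4 : ℝ≥0) < ‖((ContinuousLinearEquiv.refl ℝ V).symm : V →L[ℝ] V)‖₊⁻¹ := by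
    right
    rw [hN, inv_one]
    rw [div_lt_one (by norm_num)]
    norm_num
  set H := hwa.toOpenPartialHomeomorph w (ball 0 1) hc isOpen_ball with hH
  have hHc : ∀ z, H z = w z := fun z => rfl
  obtain ⟨z0, hz0, hwz0⟩ : ∃ z0 : V, ‖z0‖ ≤ 1/2 ∧ w z0 = 0 := by
    have h1 := hwa.surjOn_closedBall_of_nonlinearRightInverse
      (ContinuousLinearEquiv.refl ℝ V).toNonlinearRightInverse (by norm_num : (0:ℝ) ≤ 1/2)
      (b := 0) (closedBall_subset_ball (by norm_num))
    have h2 : (0:V) ∈ closedBall (w 0)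
        (((((ContinuousLinearEquiv.refl ℝ V).toNonlinearRightInverse.nnnorm : ℝ≥0) : ℝ)⁻¹ -
          ((1/4 : ℝ≥0) : ℝ)) * (1/2)) := by
      have h3 : (ContinuousLinearEquiv.refl ℝ V).toNonlinearRightInverse.nnnorm = 1 := hN
      rw [h3, mem_closedBall, dist_zero_left]
      have h4 := (hw 0 (by simp)).2.1
      rw [sub_zero] at h4
      refine h4.trans ?_
      norm_num
    obtain ⟨z0, h5, h6⟩ := h1 h2
    exact ⟨z0, by simpa using h5, h6⟩
  set G : OpenPartialHomeomorph V V :=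
    ((Homeomorph.addRight z0).toOpenPartialHomeomorph.trans H).trans
      (Homeomorph.smulOfNeZero s hs0.ne').toOpenPartialHomeomorph with hG
  have hGz : ∀ z, G z = s • w (z + z0) := fun z => rfl
  have hlt : ∀ z : V, ‖z‖ < 1/4 → ‖z + z0‖ < 1 := fun z hz => by
    have := norm_add_le z z0; linarith
  have hnear : ∀ z : V, ‖z‖ < 1/4 → ‖w (z + z0) - z‖ ≤ 1/4 * ‖z‖ := by
    intro z hz
    have := hw2 (z + z0) z0 (hlt z hz) (by linarith)
    simpa [hwz0] using this
  have hGfun : (G : V → V) = fun z => s • w (z + z0) := rfl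
  have hwd : ∀ z : V, ‖z‖ < 1/4 → DifferentiableAt ℝ w (z + z0) := fun z hz => (hw _ (hlt z hz)).1
  have hGd : ∀ z : V, ‖z‖ < 1/4 → HasFDerivAt G (s • fderiv ℝ w (z + z0)) z := by
    intro z hz
    rw [hGfun]
    have h1 : HasFDerivAt (fun z : V => w (z + z0)) (fderiv ℝ w (z + z0)) z := by
      have := ((hwd z hz).hasFDerivAt).comp z ((hasFDerivAt_id z).add_const z0)
      simpa using this
    exact h1.const_smul s
  refine ⟨G, s, hs0, hsε, ?_, ?_, ?_, ?_⟩
  · intro z hz
    rw [mem_ball_zero_iff] at hz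
    simp only [hG, OpenPartialHomeomorph.trans_source, Homeomorph.toOpenPartialHomeomorph_source,
      univ_inter, preimage_univ, inter_univ, mem_preimage]
    show z + z0 ∈ H.source
    rw [hH, ApproximatesLinearOn.toOpenPartialHomeomorph_source, mem_ball_zero_iff]
    exact hlt z hz
  · rw [hGz, zero_add, hwz0, smul_zero]
  · intro z hz
    have h1 := hnear z hz
    rw [hGz, norm_smul, Real.norm_of_nonneg hs0.le]
    have h2 : ‖w (z + z0)‖ ≤ ‖z‖ + 1/4 * ‖z‖ := by
      have := norm_add_le (w (z + z0) - z) z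
      rw [sub_add_cancel] at this
      linarith
    have h3 : ‖z‖ ≤ ‖w (z + z0)‖ + 1/4 * ‖z‖ := by
      have := norm_sub_le (w (z + z0)) (w (z + z0) - z)
      rw [sub_sub_cancel] at this
      linarith
    have h4 := norm_nonneg z
    constructor
    · nlinarith
    · nlinarith
  · intro z hz
    refine ⟨(hGd z hz).differentiableAt, ?_, ?_⟩
    · rw [(hGd z hz).fderiv]
      rw [injective_iff_map_eq_zero]
      intro ξ hξ
      rw [smul_apply, smul_eq_zero] at hξ
      have h1 : fderiv ℝ w (z + z0) ξ = 0 := hξ.resolve_left hs0.ne'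
      have h2 := (hw _ (hlt z hz)).2.2.1
      have h3 := (fderiv ℝ w (z + z0) - ContinuousLinearMap.id ℝ V).le_opNorm ξ
      rw [sub_apply, h1, zero_sub, norm_neg] at h3
      have h4 : ‖ξ‖ ≤ 1/4 * ‖ξ‖ := h3.trans (mul_le_mul_of_nonneg_right h2 (norm_nonneg _))
      have h5 : ‖ξ‖ = 0 := by
        have := norm_nonneg ξ
        linarith
      exact norm_eq_zero.1 h5
    · intro k j
      have hcomp : ∀ (i : Fin 2) (ξ : V), fderiv ℝ (fun y => G y i) z ξ =
          s * fderiv ℝ (fun y => w y i) (z + z0) ξ := by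
        intro i ξ
        have h1 := ((ContinuousLinearMap.proj (R := ℝ) (φ := fun _ : Fin 2 => ℂ) i).hasFDerivAt.comp z
          (hGd z hz)).fderiv
        have h2 := ((ContinuousLinearMap.proj (R := ℝ) (φ := fun _ : Fin 2 => ℂ) i).hasFDerivAt.comp
          (z + z0) (hwd z hz).hasFDerivAt).fderiv
        rw [show (fun y => G y i) = (ContinuousLinearMap.proj (R := ℝ) (φ := fun _ : Fin 2 => ℂ) i) ∘ G
          from rfl, show (fun y => w y i) =
          (ContinuousLinearMap.proj (R := ℝ) (φ := fun _ : Fin 2 => ℂ) i) ∘ w from rfl, h1, h2]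
        simp
      have hd : ∀ k i, dz k (fun y => G y i) z = s * dz k (fun y => w y i) (z + z0) := by
        intro k i; simp only [dz, hcomp]; ring
      have hdb : ∀ k i, dzb k (fun y => G y i) z = s * dzb k (fun y => w y i) (z + z0) := by
        intro k i; simp only [dzb, hcomp]; ring
      have hBG : B (w (z + z0)) = A (G z) := by
        rw [hGz]
        apply hBA
        have h1 := hnear z hz
        have := norm_add_le (w (z + z0) - z) z
        rw [sub_add_cancel] at this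
        linarith
      have h1 := (hw _ (hlt z hz)).2.2.2 k j
      rw [hdb, h1, hBG]
      simp only [hd, map_mul, Complex.conj_ofReal, Fin.sum_univ_two]
      ring

end

end Vale.Agent.P267.H581
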